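import Vale.Agent.P265.Main

open Set
open scoped Manifold ContDiff
open Vale.Agent.P265

theorem Vale.Agent.Results.P265.Counter.result :
    ∃ (E : Type) (_ : NormedAddCommGroup E) (_ : NormedSpace ℝ E) (_ : FiniteDimensional ℝ E)
      (M : Type) (_ : TopologicalSpace M) (_ : ChartedSpace E M) (_ : IsManifold 𝓘(ℝ, E) ∞ M),
      T2Space M ∧ CompactSpace M ∧ ConnectedSpace M ∧
      ∃ w : M → E →L[ℝ] E →L[ℝ] ℝ, IsSymplectic E w ∧ ∃ (H : ℝ → M → ℝ) (φ : ℝ → M → M),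
        ContMDiff (𝓘(ℝ, ℝ).prod 𝓘(ℝ, E)) 𝓘(ℝ, ℝ) ∞ (Function.uncurry H) ∧
        (∀ t x, H (t + 1) x = H t x) ∧ IsHamFlow E w H φ ∧
        (∀ x, φ 1 x = x → NondegAt E (φ 1) x) ∧
        (fixContr φ).encard < stableMorse E M :=
  ⟨_, inferInstance, inferInstance, inferInstance, main⟩
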